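import Vale.Agent.H18.PM.Nbr

/-!
P067 pseudomanifold obstruction (architect helper18; paper proof = board row 1065).
ROW FILE: prove the statement(s) below; do NOT change any statement, name or import.
Notation: d = k + 2; F = family of d-faces; faces F (k+1) = the (d-1)-faces.
-/

namespace H18PM

variable {V : Type*} [Fintype V] [DecidableEq V]

/-- The ball of radius j around a in the dual graph. -/
def bl_ball (k : ℕ) (F : Finset (Finset V)) (a : Finset V) : ℕ → Finset (Finset V)
  | 0 => {a}
  | (j + 1) => bl_ball k F a j ∪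
      (bl_ball k F a j).biUnion (fun t1 => F.filter (fun t => dualAdj F (k + 2) t1 t))

omit [Fintype V] in
theorem bl_ball_zero (k : ℕ) (F : Finset (Finset V)) (a : Finset V) :
    bl_ball k F a 0 = {a} := rfl

omit [Fintype V] in
theorem bl_ball_succ (k : ℕ) (F : Finset (Finset V)) (a : Finset V) (j : ℕ) :
    bl_ball k F a (j + 1) = bl_ball k F a j ∪
      (bl_ball k F a j).biUnion (fun t1 => F.filter (fun t => dualAdj F (k + 2) t1 t)) := rfl

theorem bl_ball_card (k : ℕ) (F : Finset (Finset V)) (hF : ∀ t ∈ F, t.card = k + 3)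
    (hpm : ∀ s ∈ faces F (k + 1), fdeg F s = 2) (a : Finset V) (j : ℕ) :
    (bl_ball k F a j).card ≤ (k + 4) ^ j := by
  induction j with
  | zero =>
    rw [bl_ball_zero, Finset.card_singleton, pow_zero]
  | succ j ih =>
    rw [bl_ball_succ]
    have h1 : ((bl_ball k F a j).biUnion
        (fun t1 => F.filter (fun t => dualAdj F (k + 2) t1 t))).card
        ≤ (bl_ball k F a j).card * (k + 3) := by
      refine le_trans Finset.card_biUnion_le ?_
      refine le_trans (Finset.sum_le_sum (fun t1 _ => nbr_card_le k F hF hpm t1)) ?_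
      rw [Finset.sum_const, smul_eq_mul]
    have h2 := Finset.card_union_le (bl_ball k F a j)
      ((bl_ball k F a j).biUnion (fun t1 => F.filter (fun t => dualAdj F (k + 2) t1 t)))
    calc (bl_ball k F a j ∪ (bl_ball k F a j).biUnion
          (fun t1 => F.filter (fun t => dualAdj F (k + 2) t1 t))).card
        ≤ (bl_ball k F a j).card + (bl_ball k F a j).card * (k + 3) := le_trans h2 (by omega)
      _ = (bl_ball k F a j).card * (k + 4) := by ring
      _ ≤ (k + 4) ^ j * (k + 4) := Nat.mul_le_mul_right _ ih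
      _ = (k + 4) ^ (j + 1) := by ring

omit [Fintype V] in
theorem bl_ball_mono (k : ℕ) (F : Finset (Finset V)) (a : Finset V) {i j : ℕ} (hij : i ≤ j) :
    bl_ball k F a i ⊆ bl_ball k F a j := by
  induction hij with
  | refl => exact Finset.Subset.refl _
  | step _ ih =>
    rw [bl_ball_succ]
    exact ih.trans Finset.subset_union_left

omit [Fintype V] in
theorem bl_ball_step (k : ℕ) (F : Finset (Finset V)) (a : Finset V) {j : ℕ} {t t' : Finset V}
    (ht : t ∈ bl_ball k F a j) (hadj : dualAdj F (k + 2) t t') :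
    t' ∈ bl_ball k F a (j + 1) := by
  rw [bl_ball_succ]
  apply Finset.mem_union_right
  rw [Finset.mem_biUnion]
  exact ⟨t, ht, Finset.mem_filter.2 ⟨hadj.2.1, hadj⟩⟩

omit [Fintype V] in
theorem bl_ball_reach (k : ℕ) (F : Finset (Finset V)) (a : Finset V) {b : Finset V}
    (h : Relation.ReflTransGen (dualAdj F (k + 2)) a b) : ∃ j, b ∈ bl_ball k F a j := by
  induction h with
  | refl => exact ⟨0, by rw [bl_ball_zero]; exact Finset.mem_singleton_self a⟩
  | tail _ hadj ih =>
    obtain ⟨j, hj⟩ := ih
    exact ⟨j + 1, bl_ball_step k F a hj hadj⟩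

/-- PM-5 (rank function = distance from a in the dual graph, with the Moore ball count).
Paper step (6): B 0 = {a}, B (j+1) = B j ∪ {t ∈ F : some member of B j is dual-adjacent to t};
(B j).card ≤ (k+4)^j by nbr_card_le; every b ∈ F lies in some B j (induction along
hconn); r t = the least j with t ∈ B j for t ∈ F (and 0 outside F).  Then
{t ∈ F : r t ≤ j} ⊆ B j. -/
theorem exists_rank (k : ℕ) (F : Finset (Finset V)) (hF : ∀ t ∈ F, t.card = k + 3)
    (hpm : ∀ s ∈ faces F (k + 1), fdeg F s = 2) (a : Finset V) (ha : a ∈ F)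
    (hconn : ∀ b ∈ F, Relation.ReflTransGen (dualAdj F (k + 2)) a b) :
    ∃ r : Finset V → ℕ, r a = 0 ∧
      (∀ t t', dualAdj F (k + 2) t t' → r t' ≤ r t + 1) ∧
      ∀ j : ℕ, (F.filter (fun t => r t ≤ j)).card ≤ (k + 4) ^ j := by
  classical
  have _ha := ha
  have hex : ∀ t ∈ F, ∃ j, t ∈ bl_ball k F a j := fun t ht => bl_ball_reach k F a (hconn t ht)
  have ha0 : a ∈ bl_ball k F a 0 := by
    rw [bl_ball_zero]
    exact Finset.mem_singleton_self a
  refine ⟨fun t => if h : ∃ j, t ∈ bl_ball k F a j then Nat.find h else 0, ?_, ?_, ?_⟩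
  · have h : ∃ j, a ∈ bl_ball k F a j := ⟨0, ha0⟩
    simp only [dif_pos h]
    exact (Nat.find_eq_zero h).2 ha0
  · intro t t' hadj
    have h1 := hex t hadj.1
    have h2 := hex t' hadj.2.1
    simp only [dif_pos h1, dif_pos h2]
    exact Nat.find_min' h2 (bl_ball_step k F a (Nat.find_spec h1) hadj)
  · intro j
    refine le_trans (Finset.card_le_card ?_) (bl_ball_card k F hF hpm a j)
    intro t ht
    rw [Finset.mem_filter] at ht
    have h1 := hex t ht.1
    have h2 := ht.2
    simp only [dif_pos h1] at h2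
    exact bl_ball_mono k F a h2 (Nat.find_spec h1)

end H18PM
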