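import Vale.Agent.H18.PM.Defs

/-!
P067 pseudomanifold obstruction (architect helper18; paper proof = board row 1065).
ROW FILE: prove the statement(s) below; do NOT change any statement, name or import.
Notation: d = k + 2; F = family of d-faces; faces F (k+1) = the (d-1)-faces.
-/

namespace H18PM

variable {V : Type*} [Fintype V] [DecidableEq V]

/-- PM-2 (coboundary of the indicator of one face).  The sum over the (k+2)-subsets x of t
of if x = s then 1 else 0 is 1 exactly when s is one of them. -/
theorem cob_single (k : ℕ) (s t : Finset V) (hs : s.card = k + 2) :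
    cob (k + 1) (fun x => if x = s then (1 : ZMod 2) else 0) t = if s ⊆ t then 1 else 0 := by
  unfold cob
  rw [Finset.sum_ite_eq']
  have h : s ∈ t.powersetCard (k + 1 + 1) ↔ s ⊆ t := by
    rw [Finset.mem_powersetCard]
    exact ⟨fun h => h.1, fun h => ⟨h, hs⟩⟩
  simp only [h]

end H18PM
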