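import Vale.Agent.H18.PM.CobCob
import Vale.Agent.H18.PM.Single

/-!
P067 pseudomanifold obstruction (architect helper18; paper proof = board row 1065).
ROW FILE: prove the statement(s) below; do NOT change any statement, name or import.
Notation: d = k + 2; F = family of d-faces; faces F (k+1) = the (d-1)-faces.
-/

namespace H18PM

variable {V : Type*} [Fintype V] [DecidableEq V]

theorem ch_two (k : ℕ) (F : Finset (Finset V)) (hF : ∀ t ∈ F, t.card = k + 3)
    (hpm : ∀ s ∈ faces F (k + 1), fdeg F s = 2) (b c : Finset V)
    (hbc : dualAdj F (k + 2) b c) (t : Finset V) (ht : t ∈ F) :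
    (if b ∩ c ⊆ t then (1 : ZMod 2) else 0)
      = (if t = b then 1 else 0) + (if t = c then 1 else 0) := by
  obtain ⟨hb, hc, hcard⟩ := hbc
  have hne : b ≠ c := by
    rintro rfl
    rw [Finset.inter_self, hF b hb] at hcard
    omega
  have hs : b ∩ c ∈ faces F (k + 1) := by
    unfold faces
    rw [Finset.mem_filter, Finset.mem_powersetCard]
    exact ⟨⟨Finset.subset_univ _, hcard⟩, b, hb, Finset.inter_subset_left⟩
  have h2 := hpm _ hs
  unfold fdeg at h2
  have hsub : ({b, c} : Finset (Finset V)) ⊆ F.filter (fun t => b ∩ c ⊆ t) := by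
    intro x hx
    rw [Finset.mem_insert, Finset.mem_singleton] at hx
    rw [Finset.mem_filter]
    rcases hx with rfl | rfl
    · exact ⟨hb, Finset.inter_subset_left⟩
    · exact ⟨hc, Finset.inter_subset_right⟩
  have heq : ({b, c} : Finset (Finset V)) = F.filter (fun t => b ∩ c ⊆ t) :=
    Finset.eq_of_subset_of_card_le hsub (by rw [h2, Finset.card_pair hne])
  by_cases hst : b ∩ c ⊆ t
  · have hmem : t ∈ ({b, c} : Finset (Finset V)) := by
      rw [heq, Finset.mem_filter]
      exact ⟨ht, hst⟩
    rw [Finset.mem_insert, Finset.mem_singleton] at hmem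
    rw [if_pos hst]
    rcases hmem with h | h
    · rw [if_pos h, if_neg (fun h' => hne (h.symm.trans h')), add_zero]
    · rw [if_pos h, if_neg (fun h' => hne (h'.symm.trans h)), zero_add]
  · have h1 : t ≠ b := by
      rintro rfl
      exact hst Finset.inter_subset_left
    have h3 : t ≠ c := by
      rintro rfl
      exact hst Finset.inter_subset_right
    rw [if_neg hst, if_neg h1, if_neg h3, add_zero]

theorem ch_double (x : ZMod 2) : x + x = 0 := by
  revert x
  decide

/-- PM-3 (chain cochain).  Paper steps (2)+(3): induction along the chain (Relation.ReflTransGen,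
use Relation.ReflTransGen.head_induction_on or plain induction hab).  Base: f = 0
(1 + 1 = 0 in ZMod 2).  Step b ~ c: with s = b ∩ c (k+2 elements, a member of
faces F (k+1)), hpm says exactly two members of F contain s, namely b and c
(b ≠ c because b has k+3 elements), so by cob_single and cob_add the cochain
f + indicator of s works. -/
theorem exists_chain_cochain (k : ℕ) (F : Finset (Finset V)) (hF : ∀ t ∈ F, t.card = k + 3)
    (hpm : ∀ s ∈ faces F (k + 1), fdeg F s = 2) (a b : Finset V)
    (hab : Relation.ReflTransGen (dualAdj F (k + 2)) a b) :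
    ∃ f : Finset V → ZMod 2, ∀ t ∈ F,
      cob (k + 1) f t = (if t = a then 1 else 0) + (if t = b then 1 else 0) := by
  induction hab with
  | refl =>
    refine ⟨0, fun t _ => ?_⟩
    have h0 : cob (k + 1) (0 : Finset V → ZMod 2) t = 0 := by
      simp [cob]
    rw [h0]
    exact (ch_double _).symm
  | @tail b c _ hbc ih =>
    obtain ⟨f, hf⟩ := ih
    refine ⟨f + (fun x => if x = b ∩ c then (1 : ZMod 2) else 0), fun t ht => ?_⟩
    rw [cob_add, hf t ht, cob_single k (b ∩ c) t hbc.2.2, ch_two k F hF hpm b c hbc t ht]
    have h2 := ch_double (if t = b then (1 : ZMod 2) else 0)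
    linear_combination h2

end H18PM
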