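import Vale.Agent.H18.PM.Defs

/-!
P067 pseudomanifold obstruction (architect helper18; paper proof = board row 1065).
ROW FILE: prove the statement(s) below; do NOT change any statement, name or import.
Notation: d = k + 2; F = family of d-faces; faces F (k+1) = the (d-1)-faces.
-/

namespace H18PM

variable {V : Type*} [Fintype V] [DecidableEq V]

/-- Coboundary is additive. -/
theorem cob_add (i : ℕ) (f g : Finset V → ZMod 2) (t : Finset V) :
    cob i (f + g) t = cob i f t + cob i g t := by
  simp [cob, Finset.sum_add_distrib]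

theorem cc_fibre (k : ℕ) (t r : Finset V) (ht : t.card = k + 3)
    (hr : r ∈ t.powersetCard (k + 1)) :
    ((t.powersetCard (k + 1 + 1)).filter (fun s => r ⊆ s)).card = 2 := by
  rw [Finset.mem_powersetCard] at hr
  obtain ⟨hrt, hrc⟩ := hr
  have h1 : (t.powersetCard (k + 1 + 1)).filter (fun s => r ⊆ s)
      = (t \ r).image (fun x => insert x r) := by
    ext s
    simp only [Finset.mem_filter, Finset.mem_powersetCard, Finset.mem_image, Finset.mem_sdiff]
    constructor
    · rintro ⟨⟨hst, hsc⟩, hrs⟩
      have hcard : (s \ r).card = 1 := by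
        rw [Finset.card_sdiff_of_subset hrs]
        omega
      obtain ⟨x, hx⟩ := Finset.card_eq_one.mp hcard
      have hxs : x ∈ s \ r := by
        rw [hx]
        exact Finset.mem_singleton_self x
      rw [Finset.mem_sdiff] at hxs
      refine ⟨x, ⟨hst hxs.1, hxs.2⟩, ?_⟩
      rw [← Finset.sdiff_union_of_subset hrs, hx]
      rfl
    · rintro ⟨x, ⟨hxt, hxr⟩, rfl⟩
      refine ⟨⟨Finset.insert_subset hxt hrt, ?_⟩, Finset.subset_insert x r⟩
      rw [Finset.card_insert_of_notMem hxr, hrc]
  rw [h1, Finset.card_image_of_injOn, Finset.card_sdiff_of_subset hrt]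
  · omega
  · intro x hx y hy hxy
    simp only [Finset.coe_sdiff, Set.mem_sdiff, Finset.mem_coe] at hx hy
    have hxy' : insert x r = insert y r := hxy
    have hmem : x ∈ insert y r := by
      rw [← hxy']
      exact Finset.mem_insert_self x r
    rcases Finset.mem_insert.mp hmem with h | h
    · exact h
    · exact absurd h hx.2

/-- PM-1 (delta delta = 0 over ZMod 2).  Paper step (1): every (k+1)-subset r of t
(t has k+3 elements) lies in exactly two (k+2)-subsets of t, so the double sum is
∑ r, 2 * g r = 0. -/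
theorem cob_cob (k : ℕ) (g : Finset V → ZMod 2) (t : Finset V) (ht : t.card = k + 3) :
    cob (k + 1) (cob k g) t = 0 := by
  have h2 : ∀ x : ZMod 2, x + x = 0 := by decide
  unfold cob
  rw [Finset.sum_comm' (s' := fun r => (t.powersetCard (k + 1 + 1)).filter (fun s => r ⊆ s))
    (t' := t.powersetCard (k + 1))]
  · apply Finset.sum_eq_zero
    intro r hr
    rw [Finset.sum_const, cc_fibre k t r ht hr, two_nsmul]
    exact h2 (g r)
  · intro s r
    simp only [Finset.mem_powersetCard, Finset.mem_filter]
    constructor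
    · rintro ⟨⟨hst, hsc⟩, hrs, hrc⟩
      exact ⟨⟨⟨hst, hsc⟩, hrs⟩, hrs.trans hst, hrc⟩
    · rintro ⟨⟨⟨hst, hsc⟩, hrs⟩, hrt, hrc⟩
      exact ⟨⟨hst, hsc⟩, hrs, hrc⟩

end H18PM
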