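import Vale.Agent.H18.PM.SumCob

/-!
P067 pseudomanifold obstruction (architect helper18; paper proof = board row 1065).
ROW FILE: prove the statement(s) below; do NOT change any statement, name or import.
Notation: d = k + 2; F = family of d-faces; faces F (k+1) = the (d-1)-faces.
-/

namespace H18PM

variable {V : Type*} [Fintype V] [DecidableEq V]

omit [Fintype V] in
/-- Two different top faces through a common (d-1)-face are dual-adjacent. -/
theorem cf_adj (k : ℕ) (F : Finset (Finset V)) (hF : ∀ t ∈ F, t.card = k + 3)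
    (s t t' : Finset V) (hs : s.card = k + 2) (ht : t ∈ F) (ht' : t' ∈ F) (hst : s ⊆ t)
    (hst' : s ⊆ t') (hne : t ≠ t') : dualAdj F (k + 2) t t' := by
  refine ⟨ht, ht', ?_⟩
  have hle : s.card ≤ (t ∩ t').card := Finset.card_le_card (Finset.subset_inter hst hst')
  have hlt : (t ∩ t').card < t.card := by
    apply Finset.card_lt_card
    rw [Finset.ssubset_iff_subset_ne]
    refine ⟨Finset.inter_subset_left, ?_⟩
    intro heq
    have hsub : t ⊆ t' := by
      rw [← heq]
      exact Finset.inter_subset_right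
    have heq2 := Finset.eq_of_subset_of_card_le hsub (by rw [hF t ht, hF t' ht'])
    exact hne heq2
  rw [hF t ht] at hlt
  omega

/-- PM-7 (a support face in every layer cut).  Paper step (4): U = {t ∈ F : r t < j} contains
a and not b, so ∑ t ∈ U, cob (k+1) h t = 1 by hh; by sum_cob_eq some
s ∈ faces F (k+1) has h s ≠ 0 and an odd number of members of U containing it.  By hpm
exactly two members t₁ ≠ t₂ of F contain s, so exactly one of them, say t, is in U;
the other t' is dual-adjacent to t (s ⊆ t ∩ t', s has k+2 elements, t ≠ t' have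
k+3), hence r t < j ≤ r t' ≤ r t + 1. -/
theorem exists_cut_face (k : ℕ) (F : Finset (Finset V)) (hF : ∀ t ∈ F, t.card = k + 3)
    (hpm : ∀ s ∈ faces F (k + 1), fdeg F s = 2) (a b : Finset V) (ha : a ∈ F) (hb : b ∈ F)
    (r : Finset V → ℕ) (hra : r a = 0)
    (hr : ∀ t t', dualAdj F (k + 2) t t' → r t' ≤ r t + 1)
    (h : Finset V → ZMod 2)
    (hh : ∀ t ∈ F, cob (k + 1) h t = (if t = a then 1 else 0) + (if t = b then 1 else 0))
    (j : ℕ) (hj1 : 1 ≤ j) (hj2 : j ≤ r b) :
    ∃ s ∈ faces F (k + 1), h s ≠ 0 ∧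
      ∃ t ∈ F, ∃ t' ∈ F, s ⊆ t ∧ s ⊆ t' ∧ r t + 1 = j ∧ r t' = j := by
  classical
  obtain ⟨U, hUdef⟩ : ∃ U : Finset (Finset V), U = F.filter (fun t => r t < j) := ⟨_, rfl⟩
  have hUF : U ⊆ F := by
    rw [hUdef]
    exact Finset.filter_subset _ _
  have haU : a ∈ U := by
    rw [hUdef, Finset.mem_filter]
    exact ⟨ha, by omega⟩
  have hbU : b ∉ U := by
    rw [hUdef, Finset.mem_filter]
    intro hb'
    omega
  have hsum : ∑ t ∈ U, cob (k + 1) h t = 1 := by
    rw [Finset.sum_congr rfl (fun t ht => hh t (hUF ht))]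
    rw [Finset.sum_add_distrib, Finset.sum_ite_eq', Finset.sum_ite_eq', if_pos haU, if_neg hbU,
      add_zero]
  rw [sum_cob_eq k F U hUF h] at hsum
  have hex : ∃ s ∈ faces F (k + 1),
      h s * (((U.filter (fun t => s ⊆ t)).card : ℕ) : ZMod 2) ≠ 0 := by
    by_contra hno
    push Not at hno
    rw [Finset.sum_eq_zero hno] at hsum
    exact (by decide : (0 : ZMod 2) ≠ 1) hsum
  obtain ⟨s, hs, hprod⟩ := hex
  have hhs : h s ≠ 0 := left_ne_zero_of_mul hprod
  have hcard : (((U.filter (fun t => s ⊆ t)).card : ℕ) : ZMod 2) ≠ 0 :=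
    right_ne_zero_of_mul hprod
  have hs_card : s.card = k + 2 := by
    have hs' := hs
    rw [faces, Finset.mem_filter, Finset.mem_powersetCard] at hs'
    exact hs'.1.2
  have h2 := hpm s hs
  rw [fdeg, Finset.card_eq_two] at h2
  obtain ⟨t1, t2, hne, hpair⟩ := h2
  have ht1 : t1 ∈ F ∧ s ⊆ t1 := by
    have hm : t1 ∈ F.filter (fun t => s ⊆ t) := by
      rw [hpair]
      simp
    exact Finset.mem_filter.mp hm
  have ht2 : t2 ∈ F ∧ s ⊆ t2 := by
    have hm : t2 ∈ F.filter (fun t => s ⊆ t) := by
      rw [hpair]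
      simp
    exact Finset.mem_filter.mp hm
  have hUf : U.filter (fun t => s ⊆ t)
      = ({t1, t2} : Finset (Finset V)).filter (fun t => r t < j) := by
    rw [← hpair, hUdef, Finset.filter_filter, Finset.filter_filter]
    apply Finset.filter_congr
    intro t _
    exact and_comm
  rw [hUf] at hcard
  by_cases c1 : r t1 < j <;> by_cases c2 : r t2 < j
  · exfalso
    apply hcard
    have hall : ({t1, t2} : Finset (Finset V)).filter (fun t => r t < j) = {t1, t2} := by
      apply Finset.filter_true_of_mem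
      intro t ht
      rw [Finset.mem_insert, Finset.mem_singleton] at ht
      rcases ht with h1 | h1
      · rw [h1]
        exact c1
      · rw [h1]
        exact c2
    rw [hall, Finset.card_pair hne]
    exact ZMod.natCast_self 2
  · have hd := hr t1 t2 (cf_adj k F hF s t1 t2 hs_card ht1.1 ht2.1 ht1.2 ht2.2 hne)
    exact ⟨s, hs, hhs, t1, ht1.1, t2, ht2.1, ht1.2, ht2.2, by omega, by omega⟩
  · have hd := hr t2 t1 (cf_adj k F hF s t2 t1 hs_card ht2.1 ht1.1 ht2.2 ht1.2 (Ne.symm hne))
    exact ⟨s, hs, hhs, t2, ht2.1, t1, ht1.1, ht2.2, ht1.2, by omega, by omega⟩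
  · exfalso
    apply hcard
    have hnone : ({t1, t2} : Finset (Finset V)).filter (fun t => r t < j) = ∅ := by
      apply Finset.filter_false_of_mem
      intro t ht
      rw [Finset.mem_insert, Finset.mem_singleton] at ht
      rcases ht with h1 | h1
      · rw [h1]
        exact c1
      · rw [h1]
        exact c2
    rw [hnone]
    simp

end H18PM
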