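import Mathlib

/-!
P067: statement-level definitions (helper18)

A finite pure d-dimensional simplicial complex on the vertex type V is given by the family
F of its d-faces (each a set of d + 1 vertices); its faces are the nonempty subsets of the
members of F.  Cochains are total functions Finset V → ZMod 2; only their values on faces are
ever used.
-/

namespace H18PM

variable {V : Type*} [Fintype V] [DecidableEq V]

/-- faces F i: the i-faces (faces with i + 1 vertices) of the complex with facet family F. -/
def faces (F : Finset (Finset V)) (i : ℕ) : Finset (Finset V) :=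
  (Finset.univ.powersetCard (i + 1)).filter (fun s => ∃ t ∈ F, s ⊆ t)

/-- fdeg F s: the number of members of F (top faces) containing s. -/
def fdeg (F : Finset (Finset V)) (s : Finset V) : ℕ :=
  (F.filter (fun t => s ⊆ t)).card

/-- The weight w_i(s) = the number of {t ∈ X(d) : s ⊆ t} / (binom (d+1) (i+1) * |X(d)|) of an i-face. -/
noncomputable def wt (F : Finset (Finset V)) (d i : ℕ) (s : Finset V) : ℝ :=
  (fdeg F s : ℝ) / (((d + 1).choose (i + 1) : ℝ) * (F.card : ℝ))

/-- The norm ‖f‖_i: the total weight of the i-faces on which the cochain f is nonzero. -/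
noncomputable def cnorm (F : Finset (Finset V)) (d i : ℕ) (f : Finset V → ZMod 2) : ℝ :=
  ∑ s ∈ (faces F i).filter (fun s => f s ≠ 0), wt F d i s

/-- The coboundary δ_i: (cob i f) t is the sum of f over the (i+1)-element subsets of t
(used for t with i + 2 elements). -/
def cob (i : ℕ) (f : Finset V → ZMod 2) (t : Finset V) : ZMod 2 :=
  ∑ s ∈ t.powersetCard (i + 1), f s

/-- Adjacency in the dual graph of a d-dimensional complex: two top faces sharing d vertices. -/
def dualAdj (F : Finset (Finset V)) (d : ℕ) (a b : Finset V) : Prop :=
  a ∈ F ∧ b ∈ F ∧ (a ∩ b).card = d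

instance dualAdjDecidable (F : Finset (Finset V)) (d : ℕ) (a b : Finset V) :
    Decidable (dualAdj F d a b) := by
  unfold dualAdj; infer_instance

end H18PM
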