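import Vale.Agent.H18.PM.Defs

/-!
P067 pseudomanifold obstruction (architect helper18; paper proof = board row 1065).
ROW FILE: prove the statement(s) below; do NOT change any statement, name or import.
Notation: d = k + 2; F = family of d-faces; faces F (k+1) = the (d-1)-faces.
-/

namespace H18PM

variable {V : Type*} [Fintype V] [DecidableEq V]

/-- nm_faces_top: under hF the (k+2)-faces are exactly the members of F. -/
theorem nm_faces_top (k : ℕ) (F : Finset (Finset V)) (hF : ∀ t ∈ F, t.card = k + 3) :
    faces F (k + 2) = F := by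
  ext s
  simp only [faces, Finset.mem_filter, Finset.mem_powersetCard, Finset.subset_univ, true_and]
  constructor
  · rintro ⟨hs, t, ht, hst⟩
    have h1 := hF t ht
    have h2 : s = t := Finset.eq_of_subset_of_card_le hst (by omega)
    rw [h2]
    exact ht
  · intro hs
    exact ⟨hF s hs, s, hs, Finset.Subset.refl s⟩

/-- nm_fdeg_top: under hF every member of F lies in exactly one member of F. -/
theorem nm_fdeg_top (k : ℕ) (F : Finset (Finset V)) (hF : ∀ t ∈ F, t.card = k + 3)
    (t : Finset V) (ht : t ∈ F) : fdeg F t = 1 := by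
  unfold fdeg
  rw [Finset.card_eq_one]
  refine ⟨t, ?_⟩
  ext t'
  simp only [Finset.mem_filter, Finset.mem_singleton]
  constructor
  · rintro ⟨ht', hsub⟩
    have h1 := hF t ht
    have h2 := hF t' ht'
    exact (Finset.eq_of_subset_of_card_le hsub (by omega)).symm
  · intro h
    rw [h]
    exact ⟨ht, Finset.Subset.refl _⟩

/-- PM-9 (norm of 1_a + 1_b on the top faces).  Under hF, faces F (k+2) = F (a subset of
t ∈ F with the same number of elements is t), the nonzero set of u in it is {a, b}, and
wt F (k+2) (k+2) t = 1 / F.card for t ∈ F (fdeg F t = 1, (k+3).choose (k+3) = 1). -/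
theorem cnorm_top (k : ℕ) (F : Finset (Finset V)) (hF : ∀ t ∈ F, t.card = k + 3)
    (a b : Finset V) (ha : a ∈ F) (hb : b ∈ F) (hab : a ≠ b) (u : Finset V → ZMod 2)
    (hu : ∀ t ∈ F, u t = (if t = a then 1 else 0) + (if t = b then 1 else 0)) :
    cnorm F (k + 2) (k + 2) u = 2 / (F.card : ℝ) := by
  unfold cnorm
  rw [nm_faces_top k F hF]
  have hfil : F.filter (fun s => u s ≠ 0) = {a, b} := by
    ext t
    simp only [Finset.mem_filter, Finset.mem_insert, Finset.mem_singleton]
    constructor
    · rintro ⟨ht, hut⟩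
      rw [hu t ht] at hut
      by_contra hcon
      have hta : ¬ t = a := fun h => hcon (Or.inl h)
      have htb : ¬ t = b := fun h => hcon (Or.inr h)
      apply hut
      rw [if_neg hta, if_neg htb, add_zero]
    · intro h
      rcases h with h | h
      · rw [h]
        refine ⟨ha, ?_⟩
        rw [hu a ha, if_pos rfl, if_neg hab]
        decide
      · rw [h]
        refine ⟨hb, ?_⟩
        rw [hu b hb, if_neg (Ne.symm hab), if_pos rfl]
        decide
  rw [hfil, Finset.sum_pair hab]
  have hw : ∀ t ∈ F, wt F (k + 2) (k + 2) t = 1 / (F.card : ℝ) := by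
    intro t ht
    unfold wt
    rw [nm_fdeg_top k F hF t ht, Nat.choose_self]
    simp
  rw [hw a ha, hw b hb]
  ring

/-- PM-10 (norm of a (d-1)-cochain on a complex with all (d-1)-faces of degree two).
wt F (k+2) (k+1) s = 2 / ((k+3) * F.card) for s ∈ faces F (k+1) by hpm and
Nat.choose_succ_self_right. -/
theorem cnorm_low (k : ℕ) (F : Finset (Finset V))
    (hpm : ∀ s ∈ faces F (k + 1), fdeg F s = 2) (h : Finset V → ZMod 2) :
    cnorm F (k + 2) (k + 1) h
      = (((faces F (k + 1)).filter (fun s => h s ≠ 0)).card : ℝ)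
          * (2 / (((k : ℝ) + 3) * (F.card : ℝ))) := by
  unfold cnorm
  have hw : ∀ s ∈ (faces F (k + 1)).filter (fun s => h s ≠ 0),
      wt F (k + 2) (k + 1) s = 2 / (((k : ℝ) + 3) * (F.card : ℝ)) := by
    intro s hs
    have hs' := (Finset.mem_filter.mp hs).1
    unfold wt
    have hc : (k + 2 + 1).choose (k + 1 + 1) = k + 3 := Nat.choose_succ_self_right (k + 2)
    rw [hpm s hs', hc]
    push_cast
    rfl
  rw [Finset.sum_congr rfl hw, Finset.sum_const, nsmul_eq_mul]

end H18PM
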