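import Vale.Agent.H18.PM.CutFace

/-!
P067 pseudomanifold obstruction (architect helper18; paper proof = board row 1065).
ROW FILE: prove the statement(s) below; do NOT change any statement, name or import.
Notation: d = k + 2; F = family of d-faces; faces F (k+1) = the (d-1)-faces.
-/

namespace H18PM

variable {V : Type*} [Fintype V] [DecidableEq V]

/-- PM-8 (the support has at least r b faces).  Paper step (4), end: choose for each
j ∈ Finset.Icc 1 (r b) a face s j from exists_cut_face; the map j ↦ s j is injective,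
because the only two members of F containing s j (hpm) have r-values j - 1 and j;
conclude with Finset.card_le_card_of_injOn. -/
theorem supp_card_ge (k : ℕ) (F : Finset (Finset V)) (hF : ∀ t ∈ F, t.card = k + 3)
    (hpm : ∀ s ∈ faces F (k + 1), fdeg F s = 2) (a b : Finset V) (ha : a ∈ F) (hb : b ∈ F)
    (r : Finset V → ℕ) (hra : r a = 0)
    (hr : ∀ t t', dualAdj F (k + 2) t t' → r t' ≤ r t + 1)
    (h : Finset V → ZMod 2)
    (hh : ∀ t ∈ F, cob (k + 1) h t = (if t = a then 1 else 0) + (if t = b then 1 else 0)) :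
    r b ≤ ((faces F (k + 1)).filter (fun s => h s ≠ 0)).card := by
  classical
  have key : ∀ j ∈ Finset.Icc 1 (r b), ∃ s ∈ faces F (k + 1), h s ≠ 0 ∧
      ∃ t ∈ F, ∃ t' ∈ F, s ⊆ t ∧ s ⊆ t' ∧ r t + 1 = j ∧ r t' = j := by
    intro j hj
    rw [Finset.mem_Icc] at hj
    exact exists_cut_face k F hF hpm a b ha hb r hra hr h hh j hj.1 hj.2
  choose! s hs using key
  have hcard : (Finset.Icc 1 (r b)).card = r b := by simp
  rw [← hcard]
  apply Finset.card_le_card_of_injOn s
  · intro j hj
    have h1 := hs j hj
    exact Finset.mem_filter.mpr ⟨h1.1, h1.2.1⟩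
  · intro j hj j' hj' hEq
    obtain ⟨hsf, _, t, ht, t', ht', hst, hst', hrt, hrt'⟩ := hs j hj
    obtain ⟨_, _, u, hu, u', hu', hsu, hsu', hru, hru'⟩ := hs j' hj'
    have h2 := hpm (s j) hsf
    unfold fdeg at h2
    have hne : t ≠ t' := by
      intro e
      rw [e] at hrt
      omega
    have hsub : ({t, t'} : Finset (Finset V)) ⊆ F.filter (fun x => s j ⊆ x) := by
      intro x hx
      simp only [Finset.mem_insert, Finset.mem_singleton] at hx
      rcases hx with rfl | rfl
      · exact Finset.mem_filter.mpr ⟨ht, hst⟩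
      · exact Finset.mem_filter.mpr ⟨ht', hst'⟩
    have heq : ({t, t'} : Finset (Finset V)) = F.filter (fun x => s j ⊆ x) := by
      apply Finset.eq_of_subset_of_card_le hsub
      rw [h2, Finset.card_pair hne]
    have hsu1 : s j ⊆ u := by rw [hEq]; exact hsu
    have hsu2 : s j ⊆ u' := by rw [hEq]; exact hsu'
    have hu_mem : u ∈ ({t, t'} : Finset (Finset V)) := by
      rw [heq]; exact Finset.mem_filter.mpr ⟨hu, hsu1⟩
    have hu_mem' : u' ∈ ({t, t'} : Finset (Finset V)) := by
      rw [heq]; exact Finset.mem_filter.mpr ⟨hu', hsu2⟩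
    simp only [Finset.mem_insert, Finset.mem_singleton] at hu_mem hu_mem'
    rcases hu_mem with e1 | e1
    · rw [e1] at hru
      omega
    · rw [e1] at hru
      rcases hu_mem' with e2 | e2
      · rw [e2] at hru'
        omega
      · rw [e2] at hru'
        omega

end H18PM
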