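import Vale.Agent.H18.PM.Chain
import Vale.Agent.H18.PM.Supp
import Vale.Agent.H18.PM.Norms

/-!
P067 pseudomanifold obstruction (architect helper18; paper proof = board row 1065).
Glue, paper step (5): ε * r b ≤ d + 1 for every 1-Lipschitz rank function r with r a = 0.
-/

namespace H18PM

variable {V : Type*} [Fintype V] [DecidableEq V]

theorem eps_rank_le (k : ℕ) (F : Finset (Finset V)) (hF : ∀ t ∈ F, t.card = k + 3)
    (hpm : ∀ s ∈ faces F (k + 1), fdeg F s = 2) (a b : Finset V) (ha : a ∈ F) (hb : b ∈ F)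
    (hab : Relation.ReflTransGen (dualAdj F (k + 2)) a b)
    (r : Finset V → ℕ) (hra : r a = 0)
    (hr : ∀ t t', dualAdj F (k + 2) t t' → r t' ≤ r t + 1)
    (ε : ℝ) (hε : 0 < ε)
    (hexp : ∀ f : Finset V → ZMod 2, ∃ g : Finset V → ZMod 2,
      ε * cnorm F (k + 2) (k + 1) (f + cob k g) ≤ cnorm F (k + 2) (k + 2) (cob (k + 1) f)) :
    ε * (r b : ℝ) ≤ (k : ℝ) + 3 := by
  by_cases hne : a = b
  · subst hne
    rw [hra]
    simp only [Nat.cast_zero, mul_zero]
    positivity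
  obtain ⟨f, hf⟩ := exists_chain_cochain k F hF hpm a b hab
  obtain ⟨g, hg⟩ := hexp f
  have hh : ∀ t ∈ F, cob (k + 1) (f + cob k g) t
      = (if t = a then 1 else 0) + (if t = b then 1 else 0) := by
    intro t ht
    rw [cob_add, cob_cob k g t (hF t ht), add_zero, hf t ht]
  have hsupp := supp_card_ge k F hF hpm a b ha hb r hra hr (f + cob k g) hh
  have htop := cnorm_top k F hF a b ha hb hne (cob (k + 1) f) hf
  have hlow := cnorm_low k F hpm (f + cob k g)
  rw [htop, hlow] at hg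
  have hN : (0 : ℝ) < (F.card : ℝ) := by
    exact_mod_cast Finset.card_pos.mpr ⟨a, ha⟩
  have hk : (0 : ℝ) < (k : ℝ) + 3 := by positivity
  set c : ℝ := (((faces F (k + 1)).filter (fun s => (f + cob k g) s ≠ 0)).card : ℝ) with hc
  have hrc : (r b : ℝ) ≤ c := by
    rw [hc]; exact_mod_cast hsupp
  -- ε * (c * (2 / ((k+3) * N))) ≤ 2 / N
  have h1 : ε * c * 2 ≤ 2 * ((k : ℝ) + 3) := by
    have h2 : ε * (c * (2 / (((k : ℝ) + 3) * (F.card : ℝ)))) * (((k : ℝ) + 3) * (F.card : ℝ))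
        ≤ 2 / (F.card : ℝ) * (((k : ℝ) + 3) * (F.card : ℝ)) :=
      mul_le_mul_of_nonneg_right hg (by positivity)
    have e1 : ε * (c * (2 / (((k : ℝ) + 3) * (F.card : ℝ)))) * (((k : ℝ) + 3) * (F.card : ℝ))
        = ε * c * 2 := by
      field_simp
    have e2 : 2 / (F.card : ℝ) * (((k : ℝ) + 3) * (F.card : ℝ)) = 2 * ((k : ℝ) + 3) := by
      field_simp
    rw [e1, e2] at h2
    exact h2
  have h3 : ε * (r b : ℝ) ≤ ε * c := mul_le_mul_of_nonneg_left hrc hε.le
  nlinarith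

end H18PM
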