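import Vale.Agent.H18.PM.Ball
import Vale.Agent.H18.PM.Dist

/-!
P067 pseudomanifold obstruction (architect helper18; paper proof = board row 1065).
Glue, paper step (6): ε * log N ≤ (d + 1) * log (d + 2).
-/

namespace H18PM

variable {V : Type*} [Fintype V] [DecidableEq V]

theorem pseudomanifold_bound (k : ℕ) (F : Finset (Finset V)) (hF : ∀ t ∈ F, t.card = k + 3)
    (hpm : ∀ s ∈ faces F (k + 1), fdeg F s = 2)
    (hconn : ∀ a ∈ F, ∀ b ∈ F, Relation.ReflTransGen (dualAdj F (k + 2)) a b)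
    (ε : ℝ) (hε : 0 < ε)
    (hexp : ∀ f : Finset V → ZMod 2, ∃ g : Finset V → ZMod 2,
      ε * cnorm F (k + 2) (k + 1) (f + cob k g) ≤ cnorm F (k + 2) (k + 2) (cob (k + 1) f)) :
    ε * Real.log (F.card : ℝ) ≤ ((k : ℝ) + 3) * Real.log ((k : ℝ) + 4) := by
  have hlog : 0 ≤ Real.log ((k : ℝ) + 4) := by
    apply Real.log_nonneg
    have : (0 : ℝ) ≤ (k : ℝ) := Nat.cast_nonneg k
    linarith
  have hk : (0 : ℝ) ≤ (k : ℝ) + 3 := by positivity
  rcases F.eq_empty_or_nonempty with hemp | hne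
  · subst hemp
    simp only [Finset.card_empty, Nat.cast_zero, Real.log_zero, mul_zero]
    exact mul_nonneg hk hlog
  obtain ⟨a, ha⟩ := hne
  obtain ⟨r, hra, hr, hcount⟩ := exists_rank k F hF hpm a ha (hconn a ha)
  -- a top face b of maximal rank
  obtain ⟨b, hb, hbmax⟩ := Finset.exists_max_image F r ⟨a, ha⟩
  have hR := eps_rank_le k F hF hpm a b ha hb (hconn a ha b hb) r hra hr ε hε hexp
  have hcard : F.card ≤ (k + 4) ^ (r b) := by
    have hsub : F ⊆ F.filter (fun t => r t ≤ r b) := by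
      intro t ht
      exact Finset.mem_filter.mpr ⟨ht, hbmax t ht⟩
    exact (Finset.card_le_card hsub).trans (hcount (r b))
  have hNpos : (0 : ℝ) < (F.card : ℝ) := by
    exact_mod_cast Finset.card_pos.mpr ⟨a, ha⟩
  have hlogN : Real.log (F.card : ℝ) ≤ (r b : ℝ) * Real.log ((k : ℝ) + 4) := by
    have h1 : (F.card : ℝ) ≤ ((k : ℝ) + 4) ^ (r b) := by
      exact_mod_cast hcard
    have h2 := Real.log_le_log hNpos h1
    rwa [Real.log_pow] at h2
  calc ε * Real.log (F.card : ℝ)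
      ≤ ε * ((r b : ℝ) * Real.log ((k : ℝ) + 4)) := mul_le_mul_of_nonneg_left hlogN hε.le
    _ = (ε * (r b : ℝ)) * Real.log ((k : ℝ) + 4) := by ring
    _ ≤ ((k : ℝ) + 3) * Real.log ((k : ℝ) + 4) := mul_le_mul_of_nonneg_right hR hlog

end H18PM
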