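import Vale.Agent.H18.PM.Defs

/-!
P067 pseudomanifold obstruction (architect helper18; paper proof = board row 1065).
ROW FILE: prove the statement(s) below; do NOT change any statement, name or import.
Notation: d = k + 2; F = family of d-faces; faces F (k+1) = the (d-1)-faces.
-/

namespace H18PM

variable {V : Type*} [Fintype V] [DecidableEq V]

/-- PM-4 (a top face has at most d + 1 = k + 3 dual neighbours).  Paper step (6): for a ∈ F
the map b ↦ a ∩ b sends the neighbours of a injectively (by hpm: exactly two members of F
contain a ∩ b, one of them is a) into a.powersetCard (k + 2), which has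
(k+3).choose (k+2) = k + 3 elements.  For a ∉ F the filter is empty. -/
theorem nbr_card_le (k : ℕ) (F : Finset (Finset V)) (hF : ∀ t ∈ F, t.card = k + 3)
    (hpm : ∀ s ∈ faces F (k + 1), fdeg F s = 2) (a : Finset V) :
    (F.filter (fun b => dualAdj F (k + 2) a b)).card ≤ k + 3 := by
  by_cases ha : a ∈ F
  · have hacard : a.card = k + 3 := hF a ha
    have hmaps : ∀ b ∈ F.filter (fun b => dualAdj F (k + 2) a b),
        a ∩ b ∈ a.powersetCard (k + 2) := by
      intro b hb
      rw [Finset.mem_filter] at hb
      rw [Finset.mem_powersetCard]
      exact ⟨Finset.inter_subset_left, hb.2.2.2⟩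
    have hinj : Set.InjOn (fun b => a ∩ b)
        (F.filter (fun b => dualAdj F (k + 2) a b) : Set (Finset V)) := by
      intro b hb b' hb' hbb
      rw [Finset.mem_coe, Finset.mem_filter] at hb hb'
      obtain ⟨hbF, -, -, hbc⟩ := hb
      obtain ⟨hb'F, -, -, hb'c⟩ := hb'
      have hbb' : a ∩ b = a ∩ b' := hbb
      by_contra hne
      have hs : a ∩ b ∈ faces F (k + 1) := by
        unfold faces
        rw [Finset.mem_filter, Finset.mem_powersetCard]
        exact ⟨⟨Finset.subset_univ _, hbc⟩, a, ha, Finset.inter_subset_left⟩
      have h2 := hpm _ hs
      unfold fdeg at h2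
      have hab : a ≠ b := by
        intro h
        rw [← h, Finset.inter_self, hacard] at hbc
        omega
      have hab' : a ≠ b' := by
        intro h
        rw [← h, Finset.inter_self, hacard] at hb'c
        omega
      have hsub : ({a, b, b'} : Finset (Finset V)) ⊆ F.filter (fun t => a ∩ b ⊆ t) := by
        intro t ht
        rw [Finset.mem_insert, Finset.mem_insert, Finset.mem_singleton] at ht
        rw [Finset.mem_filter]
        rcases ht with h | h | h
        · rw [h]
          exact ⟨ha, Finset.inter_subset_left⟩
        · rw [h]
          exact ⟨hbF, Finset.inter_subset_right⟩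
        · rw [h]
          refine ⟨hb'F, ?_⟩
          rw [hbb']
          exact Finset.inter_subset_right
      have h3 : ({a, b, b'} : Finset (Finset V)).card = 3 := by
        rw [Finset.card_insert_of_notMem, Finset.card_insert_of_notMem, Finset.card_singleton]
        · simpa using hne
        · simp [hab, hab']
      have h4 := Finset.card_le_card hsub
      omega
    calc (F.filter (fun b => dualAdj F (k + 2) a b)).card
        ≤ (a.powersetCard (k + 2)).card := Finset.card_le_card_of_injOn _ hmaps hinj
      _ = k + 3 := by
        rw [Finset.card_powersetCard, hacard, Nat.choose_succ_self_right]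
  · have hempty : F.filter (fun b => dualAdj F (k + 2) a b) = ∅ := by
      apply Finset.filter_eq_empty_iff.mpr
      intro b _ h
      exact ha h.1
    rw [hempty]
    simp

end H18PM
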