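import Vale.Agent.H18.PM.Defs

/-!
P067 pseudomanifold obstruction (architect helper18; paper proof = board row 1065).
ROW FILE: prove the statement(s) below; do NOT change any statement, name or import.
Notation: d = k + 2; F = family of d-faces; faces F (k+1) = the (d-1)-faces.
-/

namespace H18PM

variable {V : Type*} [Fintype V] [DecidableEq V]

/-- PM-6 helper: the subsets of a top face of the right size are the faces inside it. -/
theorem sc_powerset (k : ℕ) (F : Finset (Finset V)) (t : Finset V) (ht : t ∈ F) :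
    t.powersetCard (k + 1 + 1) = (faces F (k + 1)).filter (fun s => s ⊆ t) := by
  ext s
  simp only [Finset.mem_powersetCard, faces, Finset.mem_filter, Finset.subset_univ, true_and]
  constructor
  · rintro ⟨hst, hc⟩
    exact ⟨⟨hc, t, ht, hst⟩, hst⟩
  · rintro ⟨⟨hc, _⟩, hst⟩
    exact ⟨hst, hc⟩

/-- PM-6 (exchange of sums).  For t ∈ U ⊆ F the (k+2)-subsets of t are exactly the members
s of faces F (k+1) with s ⊆ t; exchange the two sums (Finset.sum_comm' or
Finset.sum_sigma'), and ∑ t ∈ U with s ⊆ t, h s = h s * card. -/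
theorem sum_cob_eq (k : ℕ) (F U : Finset (Finset V)) (hU : U ⊆ F) (h : Finset V → ZMod 2) :
    ∑ t ∈ U, cob (k + 1) h t
      = ∑ s ∈ faces F (k + 1), h s * (((U.filter (fun t => s ⊆ t)).card : ℕ) : ZMod 2) := by
  have h1 : ∀ t ∈ U, cob (k + 1) h t = ∑ s ∈ faces F (k + 1), if s ⊆ t then h s else 0 := by
    intro t ht
    unfold cob
    rw [sc_powerset k F t (hU ht), Finset.sum_filter]
  rw [Finset.sum_congr rfl h1, Finset.sum_comm]
  refine Finset.sum_congr rfl fun s _ => ?_
  rw [← Finset.sum_filter, Finset.sum_const, nsmul_eq_mul, mul_comm]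

end H18PM
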